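import Vale.Agent.P192.H903.Ring
import Vale.Agent.P192.H663.Calc
import Vale.Agent.P192.H491.Sect

/-!
# P192: affine groups acting on words (digit expansions)
-/

namespace Vale.Agent.P192.H903

universe u v w

/-! ## From wreath recursions to automorphisms of the tree -/

section Tree

variable {T : Type u} {Y : Type v} [Group T] (S : SS T Y)

/-- the action on words defined by a wreath recursion -/
def act : T → List Y → List Y
  | _, [] => []
  | g, y :: w => S.σ g y :: act (S.sec g y) w

theorem act_length (g : T) (w : List Y) : (act S g w).length = w.length := by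
  induction w generalizing g with
  | nil => rfl
  | cons y w ih => simp [act, ih]

theorem act_one (w : List Y) (h1 : ∀ y, S.sec 1 y = 1) : act S 1 w = w := by
  induction w with
  | nil => rfl
  | cons y w ih => simp [act, ih, h1]

theorem sec_one (y : Y) : S.sec 1 y = 1 := by
  have h := S.sec_mul 1 1 y
  rw [mul_one, map_one, Equiv.Perm.one_apply] at h
  exact (mul_eq_left.mp h.symm)

theorem act_mul (g h : T) (w : List Y) : act S (g * h) w = act S g (act S h w) := by
  induction w generalizing g h with
  | nil => rfl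
  | cons y w ih => simp [act, ih, S.sec_mul]

theorem act_append (g : T) (v w : List Y) :
    act S g (v ++ w) = act S g v ++ act S (S.secL g v) w := by
  induction v generalizing g with
  | nil => rfl
  | cons y v ih => simp [act, ih, SS.secL]

/-- the action on words as a permutation -/
def actPerm (g : T) : Equiv.Perm (List Y) where
  toFun := act S g
  invFun := act S g⁻¹
  left_inv w := by rw [← act_mul, inv_mul_cancel, act_one S w (sec_one S)]
  right_inv w := by rw [← act_mul, mul_inv_cancel, act_one S w (sec_one S)]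

theorem act_prefix (g : T) {v w : List Y} (h : v <+: w) : act S g v <+: act S g w := by
  obtain ⟨u, rfl⟩ := h
  rw [act_append]
  exact List.prefix_append _ _

/-- the homomorphism to the automorphisms of the tree -/
def toTree : T →* TreeAut Y where
  toFun g := ⟨actPerm S g, fun w => act_length S g w, fun v w => by
    constructor
    · intro h
      have h1 := act_prefix S g⁻¹ h
      have h2 : ∀ u, act S g⁻¹ (actPerm S g u) = u := fun u => (actPerm S g).left_inv u
      rwa [h2, h2] at h1
    · exact fun h => act_prefix S g h⟩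
  map_one' := by
    apply ta_ext
    intro w
    exact act_one S w (sec_one S)
  map_mul' g h := by
    apply ta_ext
    intro w
    exact act_mul S g h w

theorem toTree_apply (g : T) (w : List Y) : (toTree S g : Equiv.Perm (List Y)) w = act S g w := rfl

theorem sect_toTree (g : T) (v : List Y) : sect (toTree S g) v = toTree S (S.secL g v) := by
  apply ta_ext
  intro w
  have h1 := sect_spec (toTree S g) v w
  rw [toTree_apply, toTree_apply, act_append] at h1
  exact (List.append_cancel_left h1).symm

theorem toTree_injective (hf : S.Faithful) : Function.Injective (toTree S) := by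
  rw [injective_iff_map_eq_one]
  intro g hg
  refine hf g fun v => ?_
  ext y
  have h1 : act S g (v ++ [y]) = v ++ [y] := by
    have := congrArg (fun e : TreeAut Y => (e : Equiv.Perm (List Y)) (v ++ [y])) hg
    exact this
  have h2 : act S g v = v := by
    have := congrArg (fun e : TreeAut Y => (e : Equiv.Perm (List Y)) v) hg
    exact this
  rw [act_append, h2] at h1
  have h3 := List.append_cancel_left h1
  simp only [act, List.cons.injEq, and_true] at h3
  simpa using h3

end Tree

/-! ## Affine maps -/

/-- pairs `(A, b)`, thought of as the maps `v ↦ A • v + b` -/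
@[ext] structure Af (A : Type u) (M : Type v) where
  /-- linear part -/
  A : A
  /-- translation part -/
  b : M

namespace Af

variable {A : Type u} {M : Type v} [Group A] [AddCommGroup M] [DistribMulAction A M]

instance : Mul (Af A M) := ⟨fun p q => ⟨p.A * q.A, p.A • q.b + p.b⟩⟩
instance : One (Af A M) := ⟨⟨1, 0⟩⟩
instance : Inv (Af A M) := ⟨fun p => ⟨p.A⁻¹, -(p.A⁻¹ • p.b)⟩⟩

@[simp] theorem mul_A (p q : Af A M) : (p * q).A = p.A * q.A := rfl
@[simp] theorem mul_b (p q : Af A M) : (p * q).b = p.A • q.b + p.b := rfl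
omit [DistribMulAction A M] in
@[simp] theorem one_A : (1 : Af A M).A = 1 := rfl
omit [DistribMulAction A M] in
@[simp] theorem one_b : (1 : Af A M).b = 0 := rfl
@[simp] theorem inv_A (p : Af A M) : (p⁻¹).A = p.A⁻¹ := rfl
@[simp] theorem inv_b (p : Af A M) : (p⁻¹).b = -(p.A⁻¹ • p.b) := rfl

instance : Group (Af A M) := Group.ofLeftAxioms
  (fun p q r => by
    ext
    · simp [mul_assoc]
    · simp [mul_smul, add_assoc])
  (fun p => by ext <;> simp)
  (fun p => by ext <;> simp)

/-- the value at a vector -/
def ev (p : Af A M) (v : M) : M := p.A • v + p.b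

theorem ev_mul (p q : Af A M) (v : M) : (p * q).ev v = p.ev (q.ev v) := by
  simp [ev, mul_smul, add_assoc]

theorem ev_one (v : M) : (1 : Af A M).ev v = v := by simp [ev]

/-- the linear part -/
def lin : Af A M →* A where
  toFun p := p.A
  map_one' := rfl
  map_mul' _ _ := rfl

theorem fpb (hA : FPB A) : FPB (Af A M) := by
  refine fpb_ext (lin (A := A) (M := M)) hA ?_
  intro Γ _ hΓ ht f
  have hfg := fg_of_fp hΓ
  have hr : Group.FG f.range := Group.fg_range f
  have htr : ∀ x : f.range, IsOfFinOrder x := by
    rintro ⟨x, y, rfl⟩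
    rw [← Submonoid.isOfFinOrder_coe]
    exact f.isOfFinOrder (ht y)
  have hc : ∀ x y : f.range, x * y = y * x := by
    rintro ⟨x, hx⟩ ⟨y, hy⟩
    refine Subtype.ext (Subtype.ext ?_)
    have h1 : x.1.A = 1 := x.2
    have h2 : y.1.A = 1 := y.2
    have h3 : (x * y : (lin (A := A) (M := M)).ker).1 = x.1 * y.1 := rfl
    have h4 : (y * x : (lin (A := A) (M := M)).ker).1 = y.1 * x.1 := rfl
    change (x * y : (lin (A := A) (M := M)).ker).1 = (y * x : (lin (A := A) (M := M)).ker).1
    rw [h3, h4]
    ext
    · simp [h1, h2]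
    · simp [h1, h2, add_comm]
  refine finite_of_solvable htr 1 ?_
  rw [derivedSeries_one, commutator_def, Subgroup.commutator_eq_bot_iff_le_centralizer]
  intro x _
  rw [Subgroup.mem_centralizer_iff]
  intro y _
  exact hc y x

end Af

/-- A digit system: every element is uniquely `τ x + μ v`. -/
structure Dig (M : Type u) [AddCommGroup M] (X : Type v) where
  /-- multiplication by the base -/
  μ : M →+ M
  /-- the digits -/
  τ : X → M
  bij : Function.Bijective (fun p : X × M => τ p.1 + μ p.2)

namespace Dig

variable {A : Type u} {M : Type v} {X : Type w} [Group A] [AddCommGroup M] [DistribMulAction A M]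
  (D : Dig M X)

/-- the equivalence -/
noncomputable def eq : X × M ≃ M := Equiv.ofBijective _ D.bij

/-- last digit -/
noncomputable def dig (u : M) : X := (D.eq.symm u).1

/-- quotient -/
noncomputable def quo (u : M) : M := (D.eq.symm u).2

theorem dig_add_quo (u : M) : D.τ (D.dig u) + D.μ (D.quo u) = u := D.eq.apply_symm_apply u

theorem uniq {x : X} {v u : M} (h : D.τ x + D.μ v = u) : D.dig u = x ∧ D.quo u = v := by
  have h1 : D.eq (x, v) = u := h
  have h2 : D.eq.symm u = (x, v) := by rw [← h1, Equiv.symm_apply_apply]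
  exact ⟨congrArg Prod.fst h2, congrArg Prod.snd h2⟩

/-- the section of an affine map at a digit -/
noncomputable def sec (p : Af A M) (x : X) : Af A M := ⟨p.A, D.quo (p.ev (D.τ x))⟩

/-- the action on the digits -/
noncomputable def sg (p : Af A M) (x : X) : X := D.dig (p.ev (D.τ x))

theorem spec (hc : ∀ (a : A) (v : M), a • D.μ v = D.μ (a • v)) (p : Af A M) (x : X) (v : M) :
    p.ev (D.τ x + D.μ v) = D.τ (D.sg p x) + D.μ ((D.sec p x).ev v) := by
  have h1 := D.dig_add_quo (p.ev (D.τ x))
  have h2 : p.ev (D.τ x + D.μ v) = p.ev (D.τ x) + D.μ (p.A • v) := by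
    simp only [Af.ev, smul_add, hc]
    abel
  rw [h2, ← h1]
  simp only [Af.ev, sg, sec, map_add]
  abel

theorem spec_uniq (hc : ∀ (a : A) (v : M), a • D.μ v = D.μ (a • v)) (p q : Af A M) (x : X) :
    D.sg (p * q) x = D.sg p (D.sg q x) ∧
      D.sec (p * q) x = D.sec p (D.sg q x) * D.sec q x := by
  have h1 : (p * q).ev (D.τ x) = D.τ (D.sg p (D.sg q x)) +
      D.μ ((D.sec p (D.sg q x)).ev (D.sec q x).b) := by
    rw [Af.ev_mul]
    have h2 := D.spec hc q x 0
    rw [map_zero, add_zero] at h2
    have h3 : (D.sec q x).ev 0 = (D.sec q x).b := by simp [Af.ev]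
    rw [h2, h3, D.spec hc]
  obtain ⟨h3, h4⟩ := D.uniq h1.symm
  refine ⟨h3, ?_⟩
  ext
  · rfl
  · exact h4

theorem sg_one (x : X) : D.sg (1 : Af A M) x = x := by
  have h1 : D.τ x + D.μ 0 = (1 : Af A M).ev (D.τ x) := by rw [Af.ev_one, map_zero, add_zero]
  exact (D.uniq h1).1

/-- the wreath recursion of the affine group -/
noncomputable def ss (hc : ∀ (a : A) (v : M), a • D.μ v = D.μ (a • v)) : SS (Af A M) X where
  σ :=
    { toFun := fun p =>
        { toFun := D.sg p
          invFun := D.sg p⁻¹
          left_inv := fun x => by rw [← (D.spec_uniq hc p⁻¹ p x).1, inv_mul_cancel, D.sg_one]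
          right_inv := fun x => by rw [← (D.spec_uniq hc p p⁻¹ x).1, mul_inv_cancel, D.sg_one] }
      map_one' := by
        ext x
        exact D.sg_one x
      map_mul' := fun p q => by
        ext x
        exact (D.spec_uniq hc p q x).1 }
  sec := D.sec
  sec_mul p q x := (D.spec_uniq hc p q x).2

/-- the vector of a word -/
def val : List X → M
  | [] => 0
  | x :: w => D.τ x + D.μ (val w)

theorem ev_val (hc : ∀ (a : A) (v : M), a • D.μ v = D.μ (a • v)) (p : Af A M) (w : List X) :
    ∃ c, p.ev (D.val w) = D.val (act (D.ss hc) p w) + D.μ^[w.length] c := by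
  induction w generalizing p with
  | nil => exact ⟨p.ev (D.val []), by simp [val, act]⟩
  | cons x w ih =>
    obtain ⟨c, hc'⟩ := ih (D.sec p x)
    refine ⟨c, ?_⟩
    have h1 : p.ev (D.val (x :: w)) = D.τ (D.sg p x) + D.μ ((D.sec p x).ev (D.val w)) :=
      D.spec hc p x (D.val w)
    rw [h1, hc', map_add, ← add_assoc]
    have h2 : D.μ (D.μ^[w.length] c) = D.μ^[(x :: w).length] c := by
      rw [List.length_cons, Function.iterate_succ_apply']
    rw [h2]
    rfl

theorem faithful (hc : ∀ (a : A) (v : M), a • D.μ v = D.μ (a • v))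
    (hsep : ∀ u : M, (∀ k : ℕ, ∃ c, u = D.μ^[k] c) → u = 0)
    (hA : ∀ a : A, (∀ v : M, a • v = v) → a = 1) : (D.ss hc).Faithful := by
  intro p hp
  have key : ∀ (k : ℕ) (p : Af A M), (∀ v, (D.ss hc).σ ((D.ss hc).secL p v) = 1) → ∀ u : M,
      ∃ c, p.ev u - u = D.μ^[k] c := by
    intro k
    induction k with
    | zero => exact fun p _ u => ⟨p.ev u - u, rfl⟩
    | succ k ih =>
      intro p hp u
      obtain ⟨c, hc'⟩ := ih (D.sec p (D.dig u)) (fun v => hp (D.dig u :: v)) (D.quo u)
      refine ⟨c, ?_⟩
      have h1 : D.sg p (D.dig u) = D.dig u := by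
        have h2 : (D.ss hc).σ p = 1 := hp []
        have h3 : (D.ss hc).σ p (D.dig u) = D.dig u := by rw [h2]; rfl
        exact h3
      have h4 := D.spec hc p (D.dig u) (D.quo u)
      rw [D.dig_add_quo, h1] at h4
      have h5 : p.ev u - u = (D.τ (D.dig u) + D.μ ((D.sec p (D.dig u)).ev (D.quo u))) -
          (D.τ (D.dig u) + D.μ (D.quo u)) := by rw [D.dig_add_quo, h4]
      rw [Function.iterate_succ_apply', ← hc', h5, map_sub]
      abel
  have hev : ∀ u, p.ev u = u := by
    intro u
    exact sub_eq_zero.mp (hsep _ fun k => key k p hp u)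
  have hb : p.b = 0 := by
    have := hev 0
    simpa [Af.ev] using this
  have hA' : p.A = 1 := by
    refine hA _ fun v => ?_
    have := hev v
    rwa [Af.ev, hb, add_zero] at this
  ext
  · exact hA'
  · exact hb

/-- states -/
theorem secL_A (hc : ∀ (a : A) (v : M), a • D.μ v = D.μ (a • v)) (p : Af A M) (w : List X) :
    ((D.ss hc).secL p w).A = p.A := by
  induction w generalizing p with
  | nil => rfl
  | cons x w ih =>
    exact ih (D.sec p x)

theorem finite_states (hc : ∀ (a : A) (v : M), a • D.μ v = D.μ (a • v)) (p : Af A M)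
    (hb : ∃ S : Set M, S.Finite ∧ p.b ∈ S ∧ ∀ s ∈ S, ∀ x, D.quo (p.A • D.τ x + s) ∈ S) :
    (Set.range ((D.ss hc).secL p)).Finite := by
  obtain ⟨S, hS, hpS, hclos⟩ := hb
  have key : ∀ (w : List X) (q : Af A M), q.A = p.A → q.b ∈ S → ((D.ss hc).secL q w).b ∈ S := by
    intro w
    induction w with
    | nil => exact fun q _ h => h
    | cons x w ih =>
      intro q hq h
      refine ih (D.sec q x) hq ?_
      have h1 := hclos q.b h x
      have h2 : (D.sec q x).b = D.quo (p.A • D.τ x + q.b) := by
        simp only [sec, Af.ev, hq]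
      rw [h2]
      exact h1
  refine (hS.image (fun b => (⟨p.A, b⟩ : Af A M))).subset ?_
  rintro _ ⟨w, rfl⟩
  refine ⟨((D.ss hc).secL p w).b, key w p rfl hpS, ?_⟩
  ext
  · exact (D.secL_A hc p w).symm
  · rfl

end Dig

end Vale.Agent.P192.H903
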