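import Vale.Agent.P192.H903.AffA

/-!
# P192: affine groups over commutative rings acting on words
-/

namespace Vale.Agent.P192.H903

universe u v w

namespace Dig

variable {A : Type u} {M : Type v} {X : Type w} [Group A] [AddCommGroup M] [DistribMulAction A M]
  (D : Dig M X)

theorem val_inj {w w' : List X} (hl : w.length = w'.length) {c : M}
    (h : D.val w = D.val w' + D.μ^[w.length] c) : w = w' := by
  induction w generalizing w' with
  | nil =>
    rw [List.length_nil] at hl
    exact (List.length_eq_zero_iff.mp hl.symm).symm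
  | cons x w ih =>
    cases w' with
    | nil => simp at hl
    | cons x' w' =>
      have h1 : D.τ x + D.μ (D.val w) = D.τ x' + D.μ (D.val w' + D.μ^[w.length] c) := by
        rw [map_add, ← add_assoc, ← Function.iterate_succ_apply' (⇑D.μ)]
        exact h
      have h2 : (x, D.val w) = (x', D.val w' + D.μ^[w.length] c) := D.bij.1 h1
      obtain ⟨h3, h4⟩ := Prod.mk.injEq _ _ _ _ ▸ h2
      rw [h3, ih (by simpa using hl) h4]

theorem mem_range_iff (hc : ∀ (a : A) (v : M), a • D.μ v = D.μ (a • v)) (g : TreeAut X) :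
    g ∈ (toTree (D.ss hc)).range ↔ ∃ (a : A) (b : M), ∀ w, ∃ c,
      a • D.val w + b = D.val ((g : Equiv.Perm (List X)) w) + D.μ^[w.length] c := by
  constructor
  · rintro ⟨p, rfl⟩
    refine ⟨p.A, p.b, fun w => ?_⟩
    exact D.ev_val hc p w
  · rintro ⟨a, b, h⟩
    refine ⟨⟨a, b⟩, ?_⟩
    apply ta_ext
    intro w
    obtain ⟨c, h1⟩ := h w
    obtain ⟨c', h2⟩ := D.ev_val hc (⟨a, b⟩ : Af A M) w
    have h3 : D.val (act (D.ss hc) (⟨a, b⟩ : Af A M) w) =
        D.val ((g : Equiv.Perm (List X)) w) + D.μ^[w.length] (c - c') := by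
      have h4 : (⟨a, b⟩ : Af A M).ev (D.val w) = a • D.val w + b := rfl
      rw [h4, h1] at h2
      rw [iterate_map_sub]
      have h5 := sub_eq_of_eq_add h2
      rw [← h5]
      abel
    rw [toTree_apply]
    refine D.val_inj ?_ ((act_length (D.ss hc) _ w).symm ▸ h3)
    rw [act_length, ta_length]

end Dig

section Scalar

variable {R : Type u} [CommRing R] (r : R) {X₀ : Type v} (τ₀ : X₀ → R)
  (hbij : Function.Bijective (fun p : X₀ × R => τ₀ p.1 + r * p.2)) (d : ℕ)

/-- the digit system on `R ^ d` -/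
def digR : Dig (Fin d → R) (Fin d → X₀) where
  μ := DistribSMul.toAddMonoidHom (Fin d → R) r
  τ x i := τ₀ (x i)
  bij := by
    constructor
    · rintro ⟨x, v⟩ ⟨x', v'⟩ h
      have h1 : ∀ i, (x i, v i) = (x' i, v' i) := fun i => hbij.1 (congrFun h i)
      have h2 : x = x' := funext fun i => congrArg Prod.fst (h1 i)
      have h3 : v = v' := funext fun i => congrArg Prod.snd (h1 i)
      rw [h2, h3]
    · intro u
      choose f hf using fun i => hbij.2 (u i)
      exact ⟨(fun i => (f i).1, fun i => (f i).2), funext hf⟩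

/-- the vector of a word -/
def vec (w : List (Fin d → X₀)) (i : Fin d) : R := w.foldr (fun x a => τ₀ (x i) + r * a) 0

theorem vec_eq (w : List (Fin d → X₀)) : (digR r τ₀ hbij d).val w = vec r τ₀ d w := by
  induction w with
  | nil => rfl
  | cons x w ih =>
    funext i
    change τ₀ (x i) + r * (digR r τ₀ hbij d).val w i = τ₀ (x i) + r * vec r τ₀ d w i
    rw [ih]

theorem digR_comm (a : (Fin d → R) ≃ₗ[R] (Fin d → R)) (v : Fin d → R) :
    a • (digR r τ₀ hbij d).μ v = (digR r τ₀ hbij d).μ (a • v) :=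
  map_smul a r v

theorem digR_iter (k : ℕ) (v : Fin d → R) : (digR r τ₀ hbij d).μ^[k] v = r ^ k • v := by
  induction k with
  | zero => simp
  | succ k ih =>
    rw [Function.iterate_succ_apply', ih, pow_succ', mul_smul]
    rfl

theorem fpb_linearEquiv (R : Type u) [CommRing R] (d : ℕ) :
    FPB ((Fin d → R) ≃ₗ[R] (Fin d → R)) :=
  fpb_of_equiv (((Matrix.GeneralLinearGroup.toLin (n := Fin d) (R := R)).trans
    (LinearMap.GeneralLinearGroup.generalLinearEquiv R (Fin d → R))).symm) (fpb_GL R)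

include hbij in
/-- **Affine groups over a commutative ring, acting on words.** -/
theorem affine_group [Finite X₀] (hsep : ∀ u : R, (∀ k : ℕ, r ^ k ∣ u) → u = 0)
    (hq : ∀ F B : Set R, F.Finite → B.Finite → ∃ S : Set R, S.Finite ∧ B ⊆ S ∧
      ∀ s ∈ S, ∀ f ∈ F, ∀ (x : X₀) (v : R), τ₀ x + r * v = f + s → v ∈ S) :
    ∃ H : Subgroup (TreeAut (Fin d → X₀)), FPB H ∧ (∀ g ∈ H, ∀ v, sect g v ∈ H) ∧
      (∀ g ∈ H, (Set.range (sect g)).Finite) ∧
      ∀ g : TreeAut (Fin d → X₀), g ∈ H ↔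
        ∃ (a : (Fin d → R) ≃ₗ[R] (Fin d → R)) (b : Fin d → R), ∀ w i,
          r ^ w.length ∣ (a (vec r τ₀ d w) + b) i -
            vec r τ₀ d ((g : Equiv.Perm (List (Fin d → X₀))) w) i := by
  classical
  set D := digR r τ₀ hbij d with hD
  have hc : ∀ (a : (Fin d → R) ≃ₗ[R] (Fin d → R)) (v : Fin d → R), a • D.μ v = D.μ (a • v) :=
    digR_comm r τ₀ hbij d
  have hf : (D.ss hc).Faithful := by
    refine D.faithful hc (fun u hu => ?_) (fun a ha => ?_)
    · funext i
      refine hsep _ fun k => ?_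
      obtain ⟨c, hc⟩ := hu k
      rw [hc, hD, digR_iter]
      exact ⟨c i, rfl⟩
    · exact LinearEquiv.ext fun v => ha v
  refine ⟨(toTree (D.ss hc)).range, ?_, ?_, ?_, ?_⟩
  · exact fpb_of_equiv (MonoidHom.ofInjective (toTree_injective (D.ss hc) hf)).symm
      (Af.fpb (fpb_linearEquiv R d))
  · rintro _ ⟨p, rfl⟩ v
    rw [sect_toTree]
    exact ⟨_, rfl⟩
  · rintro _ ⟨p, rfl⟩
    have h1 : Set.range (sect (toTree (D.ss hc) p)) ⊆
        toTree (D.ss hc) '' (Set.range ((D.ss hc).secL p)) := by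
      rintro _ ⟨v, rfl⟩
      exact ⟨_, ⟨v, rfl⟩, (sect_toTree (D.ss hc) p v).symm⟩
    refine (Set.Finite.image _ ?_).subset h1
    refine D.finite_states hc p ?_
    obtain ⟨S, hS, hBS, hclos⟩ := hq
      (Set.range (fun q : (Fin d → X₀) × Fin d => (p.A • D.τ q.1) q.2)) (Set.range p.b)
      (Set.finite_range _) (Set.finite_range _)
    refine ⟨{v | ∀ i, v i ∈ S}, Set.Finite.pi' fun _ => hS, fun i => hBS ⟨i, rfl⟩, ?_⟩
    intro s hs x i
    exact hclos (s i) (hs i) ((p.A • D.τ x) i) ⟨(x, i), rfl⟩ (D.dig (p.A • D.τ x + s) i) _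
      (congrFun (D.dig_add_quo (p.A • D.τ x + s)) i)
  · intro g
    rw [D.mem_range_iff hc g]
    constructor
    · rintro ⟨a, b, h⟩
      refine ⟨a, b, fun w i => ?_⟩
      obtain ⟨c, h1⟩ := h w
      rw [hD, vec_eq, vec_eq, digR_iter] at h1
      refine ⟨c i, ?_⟩
      have h2 : a (vec r τ₀ d w) + b = vec r τ₀ d ((g : Equiv.Perm (List (Fin d → X₀))) w) +
        r ^ w.length • c := h1
      rw [h2, Pi.add_apply, add_sub_cancel_left]
      rfl
    · rintro ⟨a, b, h⟩
      refine ⟨a, b, fun w => ?_⟩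
      choose c hc' using h w
      refine ⟨c, ?_⟩
      rw [hD, vec_eq, vec_eq, digR_iter]
      funext i
      have := hc' i
      rw [sub_eq_iff_eq_add'] at this
      exact this

end Scalar

end Vale.Agent.P192.H903
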