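import Vale.Agent.P192.H903.AffB

/-!
# P192: affine groups with denominators prime to the base
-/

namespace Vale.Agent.P192.H903

universe u v w

section Loc

variable {R₀ : Type u} [CommRing R₀] [IsDomain R₀] (r : R₀) {X₀ : Type v} (τ₀ : X₀ → R₀)

omit [IsDomain R₀] in
/-- elements prime to `r` -/
def primeTo (r : R₀) : Submonoid R₀ where
  carrier := {D | IsCoprime D r}
  one_mem' := isCoprime_one_left
  mul_mem' := fun ha hb => IsCoprime.mul_left ha hb

omit [IsDomain R₀] in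
theorem dvd_of_dvd_mul {D e : R₀} (hD : IsCoprime D r) {k : ℕ} (h : r ^ k ∣ D * e) :
    r ^ k ∣ e :=
  (IsCoprime.pow_left hD.symm).dvd_of_dvd_mul_left h

theorem ne_zero_of_bij (hbij : Function.Bijective (fun p : X₀ × R₀ => τ₀ p.1 + r * p.2)) :
    r ≠ 0 := by
  rintro rfl
  obtain ⟨⟨x, v⟩, -⟩ := hbij.2 0
  have h1 : ((x, (0 : R₀)) : X₀ × R₀) = (x, 1) := hbij.1 (by simp)
  exact zero_ne_one (congrArg Prod.snd h1)

variable (hsep : ∀ u : R₀, (∀ k : ℕ, r ^ k ∣ u) → u = 0)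

include hsep in
theorem primeTo_le : primeTo r ≤ nonZeroDivisors R₀ := by
  intro D hD
  rw [mem_nonZeroDivisors_iff_ne_zero]
  rintro rfl
  have h1 : IsUnit r := isCoprime_zero_left.mp hD
  have h2 : (1 : R₀) = 0 := hsep 1 fun k => (h1.pow k).dvd
  exact one_ne_zero h2

omit [IsDomain R₀] in
/-- the localised ring -/
abbrev LR (r : R₀) : Type u := Localization (primeTo r)

include hsep in
theorem map_inj : Function.Injective (algebraMap R₀ (LR r)) :=
  IsLocalization.injective (LR r) (primeTo_le r hsep)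

include hsep in
theorem isDomain_LR : IsDomain (LR r) :=
  IsLocalization.isDomain_localization (primeTo_le r hsep)

include hsep in
theorem dvd_of_map_dvd (hr : r ≠ 0) {k : ℕ} {e : R₀} {v : LR r}
    (h : algebraMap R₀ (LR r) r ^ k * v = algebraMap R₀ (LR r) e) :
    ∃ e', e = r ^ k * e' ∧ v = algebraMap R₀ (LR r) e' := by
  have hdom := isDomain_LR r hsep
  obtain ⟨⟨c, D⟩, hc⟩ := IsLocalization.surj (primeTo r) v
  have h1 : algebraMap R₀ (LR r) (r ^ k * c) = algebraMap R₀ (LR r) (D * e) := by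
    rw [map_mul, map_mul, map_pow, ← hc, ← h]
    ring
  have h2 := map_inj r hsep h1
  obtain ⟨e', he'⟩ := dvd_of_dvd_mul r D.2 (Dvd.intro c h2)
  refine ⟨e', he', ?_⟩
  have h3 : algebraMap R₀ (LR r) r ^ k ≠ 0 := by
    refine pow_ne_zero _ fun h0 => hr (map_inj r hsep ?_)
    rw [h0, map_zero]
  refine mul_left_cancel₀ h3 ?_
  rw [h, he', map_mul, map_pow]

variable (hbij : Function.Bijective (fun p : X₀ × R₀ => τ₀ p.1 + r * p.2))

include hsep hbij in
theorem bij_LR : Function.Bijective (fun p : X₀ × LR r =>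
    algebraMap R₀ (LR r) (τ₀ p.1) + algebraMap R₀ (LR r) r * p.2) := by
  have hdom := isDomain_LR r hsep
  have hr := ne_zero_of_bij r τ₀ hbij
  constructor
  · rintro ⟨x, v⟩ ⟨x', v'⟩ h
    simp only at h
    have h1 : algebraMap R₀ (LR r) r ^ 1 * (v' - v) = algebraMap R₀ (LR r) (τ₀ x - τ₀ x') := by
      rw [map_sub, pow_one, mul_sub]
      linear_combination -h
    obtain ⟨e, he, he'⟩ := dvd_of_map_dvd r hsep hr h1
    have h2 : ((x, (0 : R₀)) : X₀ × R₀) = (x', e) := hbij.1 (by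
      simp only [mul_zero, add_zero]
      rw [pow_one] at he
      linear_combination he)
    have h3 : x = x' := congrArg Prod.fst h2
    have h4 : (0 : R₀) = e := congrArg Prod.snd h2
    rw [← h4, map_zero, sub_eq_zero] at he'
    rw [h3, he']
  · intro u
    obtain ⟨⟨a, D⟩, ha⟩ := IsLocalization.surj (primeTo r) u
    obtain ⟨p, q, hpq⟩ := D.2
    obtain ⟨⟨x, e⟩, hx⟩ := hbij.2 (p * a)
    simp only at hx ha
    refine ⟨(x, IsLocalization.mk' (LR r) (D * e + q * a) D), ?_⟩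
    have hu := IsLocalization.map_units (LR r) D
    refine hu.mul_right_cancel ?_
    simp only
    rw [ha, add_mul, mul_assoc, IsLocalization.mk'_spec, ← map_mul, ← map_mul, ← map_add]
    congr 1
    have h5 : a = (p * D + q * r) * a := by rw [hpq, one_mul]
    linear_combination (D : R₀) * hx - h5

include hsep in
theorem sep_LR (hr : r ≠ 0) (u : LR r) (h : ∀ k : ℕ, algebraMap R₀ (LR r) r ^ k ∣ u) : u = 0 := by
  have hdom := isDomain_LR r hsep
  obtain ⟨⟨a, D⟩, ha⟩ := IsLocalization.surj (primeTo r) u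
  simp only at ha
  have h1 : a = 0 := by
    refine hsep a fun k => ?_
    obtain ⟨w, hw⟩ := h k
    have h2 : algebraMap R₀ (LR r) r ^ k * (w * algebraMap R₀ (LR r) D) =
        algebraMap R₀ (LR r) a := by
      rw [← ha, hw, mul_assoc]
    obtain ⟨e, he, -⟩ := dvd_of_map_dvd r hsep hr h2
    exact ⟨e, he⟩
  rw [h1, map_zero] at ha
  exact (IsLocalization.map_units (LR r) D).mul_left_eq_zero.mp ha

include hsep in
theorem fin_LR [Finite X₀] (hr : r ≠ 0) (N : R₀ → ℕ) (hN : ∀ c, {u | N u ≤ c}.Finite)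
    (hq : ∀ u₀ : R₀, ∃ c, ∀ b v : R₀, r * v = u₀ + b → N v ≤ max (N b) c)
    (F B : Set (LR r)) (hF : F.Finite) (hB : B.Finite) :
    ∃ S : Set (LR r), S.Finite ∧ B ⊆ S ∧
      ∀ s ∈ S, ∀ f ∈ F, ∀ (x : X₀) (v : LR r),
        algebraMap R₀ (LR r) (τ₀ x) + algebraMap R₀ (LR r) r * v = f + s → v ∈ S := by
  classical
  cases nonempty_fintype X₀
  obtain ⟨D, hD⟩ := IsLocalization.exist_integer_multiples_of_finset (primeTo r)
    (hF.toFinset ∪ hB.toFinset)
  have hF' : ∀ f ∈ F, ∃ f₀, algebraMap R₀ (LR r) f₀ = algebraMap R₀ (LR r) D * f := by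
    intro f hf
    obtain ⟨f₀, h⟩ := hD f (Finset.mem_union_left _ (hF.mem_toFinset.mpr hf))
    refine ⟨f₀, ?_⟩
    rw [h, Algebra.smul_def]
  have hB' : ∀ f ∈ B, ∃ f₀, algebraMap R₀ (LR r) f₀ = algebraMap R₀ (LR r) D * f := by
    intro f hf
    obtain ⟨f₀, h⟩ := hD f (Finset.mem_union_right _ (hB.mem_toFinset.mpr hf))
    refine ⟨f₀, ?_⟩
    rw [h, Algebra.smul_def]
  choose! φ hφ using hF'
  choose! ψ hψ using hB'
  choose c hc using hq
  let C : ℕ := max (hB.toFinset.sup fun b => N (ψ b))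
    ((hF.toFinset ×ˢ Finset.univ).sup fun p : LR r × X₀ => c (φ p.1 - D * τ₀ p.2))
  have hu := IsLocalization.map_units (LR r) D
  refine ⟨{s | ∃ s₀, algebraMap R₀ (LR r) s₀ = algebraMap R₀ (LR r) D * s ∧ N s₀ ≤ C}, ?_, ?_, ?_⟩
  · refine ((hN C).image fun s₀ => IsLocalization.mk' (LR r) s₀ D).subset ?_
    rintro s ⟨s₀, h1, h2⟩
    refine ⟨s₀, h2, ?_⟩
    refine hu.mul_left_cancel ?_
    simp only
    rw [IsLocalization.mk'_spec', h1]
  · intro b hb
    refine ⟨ψ b, hψ b hb, ?_⟩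
    exact (Finset.le_sup (f := fun b => N (ψ b)) (hB.mem_toFinset.mpr hb)).trans (le_max_left _ _)
  · rintro s ⟨s₀, h1, h2⟩ f hf x v hv
    have h3 : algebraMap R₀ (LR r) r ^ 1 * (algebraMap R₀ (LR r) D * v) =
        algebraMap R₀ (LR r) (φ f - D * τ₀ x + s₀) := by
      rw [map_add, map_sub, map_mul, hφ f hf, h1, pow_one]
      linear_combination (algebraMap R₀ (LR r) D) * hv
    obtain ⟨v₀, h4, h5⟩ := dvd_of_map_dvd r hsep hr h3
    refine ⟨v₀, h5.symm, ?_⟩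
    rw [pow_one] at h4
    refine (hc (φ f - D * τ₀ x) s₀ v₀ h4.symm).trans (max_le h2 ?_)
    refine le_trans ?_ (le_max_right _ _)
    exact Finset.le_sup (f := fun p : LR r × X₀ => c (φ p.1 - D * τ₀ p.2)) (b := (f, x))
      (Finset.mem_product.mpr ⟨hF.mem_toFinset.mpr hf, Finset.mem_univ _⟩)

omit [IsDomain R₀] in
theorem vec_map (d : ℕ) (w : List (Fin d → X₀)) (i : Fin d) :
    vec (algebraMap R₀ (LR r) r) (fun x => algebraMap R₀ (LR r) (τ₀ x)) d w i =
      algebraMap R₀ (LR r) (vec r τ₀ d w i) := by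
  induction w with
  | nil => exact (map_zero _).symm
  | cons x w ih =>
    change algebraMap R₀ (LR r) (τ₀ (x i)) + algebraMap R₀ (LR r) r *
      vec (algebraMap R₀ (LR r) r) (fun x => algebraMap R₀ (LR r) (τ₀ x)) d w i =
      algebraMap R₀ (LR r) (τ₀ (x i) + r * vec r τ₀ d w i)
    rw [ih, map_add, map_mul]

include hsep hbij in
/-- **Affine groups with denominators prime to the base, acting on words.** -/
theorem affine_loc [Finite X₀] (N : R₀ → ℕ) (hN : ∀ c, {u | N u ≤ c}.Finite)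
    (hq : ∀ u₀ : R₀, ∃ c, ∀ b v : R₀, r * v = u₀ + b → N v ≤ max (N b) c) (d : ℕ) :
    ∃ H : Subgroup (TreeAut (Fin d → X₀)), FPB H ∧ (∀ g ∈ H, ∀ v, sect g v ∈ H) ∧
      (∀ g ∈ H, (Set.range (sect g)).Finite) ∧
      ∀ g : TreeAut (Fin d → X₀), (∃ (D : R₀) (A : Matrix (Fin d) (Fin d) R₀) (b : Fin d → R₀),
        IsCoprime D r ∧ IsCoprime A.det r ∧ ∀ w i, r ^ w.length ∣
          D * vec r τ₀ d ((g : Equiv.Perm (List (Fin d → X₀))) w) i -
            (A.mulVec (vec r τ₀ d w) i + b i)) → g ∈ H := by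
  have hdom := isDomain_LR r hsep
  have hr := ne_zero_of_bij r τ₀ hbij
  obtain ⟨H, h1, h2, h3, h4⟩ := affine_group (algebraMap R₀ (LR r) r)
    (fun x => algebraMap R₀ (LR r) (τ₀ x)) (bij_LR r τ₀ hsep hbij) d (sep_LR r hsep hr)
    (fin_LR r τ₀ hsep hr N hN hq)
  refine ⟨H, h1, h2, h3, ?_⟩
  rintro g ⟨D, A, b, hD, hA, hg⟩
  rw [h4 g]
  let ι := algebraMap R₀ (LR r)
  have hDu : IsUnit (ι D) := IsLocalization.map_units (LR r) (⟨D, hD⟩ : primeTo r)
  have hAu : IsUnit (ι A.det) := IsLocalization.map_units (LR r) (⟨A.det, hA⟩ : primeTo r)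
  obtain ⟨E, hE⟩ := hDu
  let A' : Matrix (Fin d) (Fin d) (LR r) := ((E⁻¹ : (LR r)ˣ) : LR r) • A.map ι
  have hA'u : IsUnit A'.det := by
    have e1 : (A.map ι).det = ι A.det := by
      rw [RingHom.map_det]; rfl
    rw [Matrix.det_smul, e1]
    exact (E⁻¹.isUnit.pow _).mul hAu
  let U : GL (Fin d) (LR r) := Matrix.nonsingInvUnit A' hA'u
  let a : (Fin d → LR r) ≃ₗ[LR r] (Fin d → LR r) :=
    LinearMap.GeneralLinearGroup.generalLinearEquiv (LR r) (Fin d → LR r)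
      (Matrix.GeneralLinearGroup.toLin U)
  have ha : ∀ v, a v = A'.mulVec v := fun v => rfl
  refine ⟨a, fun i => ((E⁻¹ : (LR r)ˣ) : LR r) * ι (b i), fun w i => ?_⟩
  obtain ⟨e, he⟩ := hg w i
  refine ⟨-(((E⁻¹ : (LR r)ˣ) : LR r) * ι e), ?_⟩
  have e2 : (a (vec (ι r) (fun x => ι (τ₀ x)) d w)) i =
      ((E⁻¹ : (LR r)ˣ) : LR r) * ι (A.mulVec (vec r τ₀ d w) i) := by
    rw [ha]
    simp only [A', Matrix.smul_mulVec, Pi.smul_apply, smul_eq_mul]
    congr 1
    simp only [Matrix.mulVec, dotProduct, Matrix.map_apply, map_sum, map_mul]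
    refine Finset.sum_congr rfl fun j _ => ?_
    rw [← vec_map]
  have e3 : ((E⁻¹ : (LR r)ˣ) : LR r) * ι D = 1 := by rw [← hE, Units.inv_mul]
  have e4 := congrArg ι he
  rw [map_sub, map_mul, map_add, map_mul, map_pow] at e4
  rw [Pi.add_apply, e2]
  have e5 : vec (ι r) (fun x => ι (τ₀ x)) d ((g : Equiv.Perm (List (Fin d → X₀))) w) i =
      ι (vec r τ₀ d ((g : Equiv.Perm (List (Fin d → X₀))) w) i) := vec_map r τ₀ d _ i
  change ((E⁻¹ : (LR r)ˣ) : LR r) * ι (A.mulVec (vec r τ₀ d w) i) +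
    ((E⁻¹ : (LR r)ˣ) : LR r) * ι (b i) -
    vec (ι r) (fun x => ι (τ₀ x)) d ((g : Equiv.Perm (List (Fin d → X₀))) w) i =
    (ι r) ^ w.length * -(((E⁻¹ : (LR r)ˣ) : LR r) * ι e)
  rw [e5]
  linear_combination (-((E⁻¹ : (LR r)ˣ) : LR r)) * e4 +
    ι (vec r τ₀ d ((g : Equiv.Perm (List (Fin d → X₀))) w) i) * e3

end Loc

end Vale.Agent.P192.H903
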