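import Vale.Agent.P192.H903.AffC

/-!
# P192: integral and polynomial affine automata
-/

namespace Vale.Agent.P192.H903

universe u

theorem bij_int (m : ℕ) (hm : 2 ≤ m) :
    Function.Bijective (fun p : Fin m × ℤ => ((p.1 : ℕ) : ℤ) + (m : ℤ) * p.2) := by
  have hm0 : (0 : ℤ) < m := by exact_mod_cast (by omega : 0 < m)
  constructor
  · rintro ⟨x, v⟩ ⟨x', v'⟩ h
    simp only at h
    have h1 : (0 : ℤ) ≤ ((x : ℕ) : ℤ) := Int.natCast_nonneg _
    have h2 : ((x : ℕ) : ℤ) < m := by exact_mod_cast x.2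
    have h3 : (0 : ℤ) ≤ ((x' : ℕ) : ℤ) := Int.natCast_nonneg _
    have h4 : ((x' : ℕ) : ℤ) < m := by exact_mod_cast x'.2
    have h5 : v = v' := by
      by_contra hne
      rcases lt_or_gt_of_ne hne with h6 | h6
      · have h7 : v + 1 ≤ v' := h6
        nlinarith
      · have h7 : v' + 1 ≤ v := h6
        nlinarith
    subst h5
    have h6 : (x : ℕ) = x' := by
      have : ((x : ℕ) : ℤ) = ((x' : ℕ) : ℤ) := by linarith
      exact_mod_cast this
    rw [Fin.ext h6]
  · intro u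
    have h1 : 0 ≤ u % m := Int.emod_nonneg _ hm0.ne'
    have h2 : u % m < m := Int.emod_lt_of_pos _ hm0
    refine ⟨(⟨(u % m).toNat, by omega⟩, u / m), ?_⟩
    simp only
    rw [Int.toNat_of_nonneg h1]
    exact Int.emod_add_mul_ediv u m

theorem sep_int (m : ℕ) (hm : 2 ≤ m) (u : ℤ) (h : ∀ k : ℕ, (m : ℤ) ^ k ∣ u) : u = 0 := by
  refine Int.eq_zero_of_abs_lt_dvd (h u.natAbs) ?_
  have h1 : u.natAbs < m ^ u.natAbs := Nat.lt_pow_self (by omega)
  have h2 : |u| = (u.natAbs : ℤ) := Int.abs_eq_natAbs u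
  rw [h2]
  exact_mod_cast h1

theorem finN_int (c : ℕ) : {u : ℤ | u.natAbs ≤ c}.Finite := by
  refine (Set.finite_Icc (-(c : ℤ)) c).subset ?_
  intro u hu
  simp only [Set.mem_ofPred_eq] at hu
  rw [Set.mem_Icc]
  omega

theorem hq_int (m : ℕ) (hm : 2 ≤ m) (u₀ : ℤ) :
    ∃ c, ∀ b v : ℤ, (m : ℤ) * v = u₀ + b → v.natAbs ≤ max b.natAbs c := by
  refine ⟨u₀.natAbs, fun b v h => ?_⟩
  by_contra hcon
  rw [not_le, max_lt_iff] at hcon
  obtain ⟨h1, h2⟩ := hcon
  have h3 : |(m : ℤ) * v| ≤ |u₀| + |b| := by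
    rw [h]
    exact abs_add_le _ _
  rw [abs_mul, Int.abs_eq_natAbs, Int.abs_eq_natAbs, Int.abs_eq_natAbs, Int.abs_eq_natAbs,
    Int.natAbs_natCast] at h3
  have h4 : m * v.natAbs ≤ u₀.natAbs + b.natAbs := by exact_mod_cast h3
  have h5 : 2 * v.natAbs ≤ m * v.natAbs := Nat.mul_le_mul_right _ hm
  omega

/-- **Rational affine automata**: words over `(ℤ/m)^d` are the `m`-adic expansions of integer
vectors; the group contains all tree automorphisms of the form `v ↦ (A v + b) / D` with `D` and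
`det A` prime to `m`. -/
theorem affine_rat (m : ℕ) (hm : 2 ≤ m) (d : ℕ) :
    ∃ H : Subgroup (TreeAut (Fin d → Fin m)), FPB H ∧ (∀ g ∈ H, ∀ v, sect g v ∈ H) ∧
      (∀ g ∈ H, (Set.range (sect g)).Finite) ∧
      ∀ g : TreeAut (Fin d → Fin m), (∃ (D : ℤ) (A : Matrix (Fin d) (Fin d) ℤ) (b : Fin d → ℤ),
        IsCoprime D m ∧ IsCoprime A.det m ∧ ∀ w i, (m : ℤ) ^ w.length ∣
          D * vec (m : ℤ) (fun x : Fin m => ((x : ℕ) : ℤ)) d
            ((g : Equiv.Perm (List (Fin d → Fin m))) w) i -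
            (A.mulVec (vec (m : ℤ) (fun x : Fin m => ((x : ℕ) : ℤ)) d w) i + b i)) → g ∈ H :=
  affine_loc (m : ℤ) (fun x : Fin m => ((x : ℕ) : ℤ)) (sep_int m hm) (bij_int m hm) Int.natAbs
    finN_int (hq_int m hm) d

open Polynomial

theorem bij_poly (K : Type u) [CommRing K] :
    Function.Bijective (fun p : K × K[X] => C p.1 + X * p.2) := by
  constructor
  · rintro ⟨x, v⟩ ⟨x', v'⟩ h
    simp only at h
    have h1 : x = x' := by
      have := congrArg (fun p => coeff p 0) h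
      simpa using this
    have h2 : v = v' := by
      ext n
      have := congrArg (fun p => coeff p (n + 1)) h
      simpa [coeff_C_succ] using this
    rw [h1, h2]
  · intro u
    refine ⟨(u.coeff 0, u.divX), ?_⟩
    simp only
    rw [add_comm, mul_comm]
    exact divX_mul_X_add u

theorem sep_poly (K : Type u) [CommRing K] (u : K[X]) (h : ∀ k : ℕ, (X : K[X]) ^ k ∣ u) :
    u = 0 := by
  ext n
  exact X_pow_dvd_iff.mp (h (n + 1)) n (Nat.lt_succ_self n)

theorem finN_poly (K : Type u) [CommRing K] [Finite K] (c : ℕ) :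
    {u : K[X] | u.natDegree ≤ c}.Finite := by
  refine Set.Finite.of_injOn (f := fun u (i : Fin (c + 1)) => u.coeff i) (t := Set.univ)
    (fun _ _ => Set.mem_univ _) ?_ Set.finite_univ
  intro u hu v hv h
  ext n
  by_cases hn : n < c + 1
  · exact congrFun h ⟨n, hn⟩
  · simp only [Set.mem_ofPred_eq] at hu hv
    rw [coeff_eq_zero_of_natDegree_lt (by omega), coeff_eq_zero_of_natDegree_lt (by omega)]

theorem hq_poly (K : Type u) [CommRing K] (u₀ : K[X]) :
    ∃ c, ∀ b v : K[X], X * v = u₀ + b → v.natDegree ≤ max b.natDegree c := by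
  refine ⟨u₀.natDegree, fun b v h => ?_⟩
  rw [natDegree_le_iff_coeff_eq_zero]
  intro n hn
  rw [max_lt_iff] at hn
  have h1 := congrArg (fun p => coeff p (n + 1)) h
  simp only [coeff_X_mul, coeff_add] at h1
  rw [h1, coeff_eq_zero_of_natDegree_lt (by omega), coeff_eq_zero_of_natDegree_lt (by omega),
    add_zero]

/-- **Affine automata over a finite field** (e.g. lamplighter groups): words over `K^d` are the
expansions of vectors of polynomials. -/
theorem affine_ff (K : Type u) [Field K] [Finite K] (d : ℕ) :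
    ∃ H : Subgroup (TreeAut (Fin d → K)), FPB H ∧ (∀ g ∈ H, ∀ v, sect g v ∈ H) ∧
      (∀ g ∈ H, (Set.range (sect g)).Finite) ∧
      ∀ g : TreeAut (Fin d → K), (∃ (D : K[X]) (A : Matrix (Fin d) (Fin d) K[X])
        (b : Fin d → K[X]), IsCoprime D X ∧ IsCoprime A.det X ∧ ∀ w i, (X : K[X]) ^ w.length ∣
          D * vec (X : K[X]) C d ((g : Equiv.Perm (List (Fin d → K))) w) i -
            (A.mulVec (vec (X : K[X]) C d w) i + b i)) → g ∈ H :=
  affine_loc (X : K[X]) (fun x : K => C x) (sep_poly K) (bij_poly K) natDegree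
    (finN_poly K) (hq_poly K) d

end Vale.Agent.P192.H903
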