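import Vale.Agent.P192.H903.AffD
import Vale.Agent.P192.H124.RayExplicit

/-!
# P192: automata which are affine up to polynomially many states, explicit form
-/

namespace Vale.Agent.P192.H903

/-- the relative theorem for a group of tree automorphisms described by a predicate -/
theorem rel_tree (X : Type) [Finite X] (H : Subgroup (TreeAut X)) (hF : FPB H)
    (hcl : ∀ g ∈ H, ∀ v, sect g v ∈ H) (hfs : ∀ g ∈ H, (Set.range (sect g)).Finite)
    (P : (List X → List X) → Prop)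
    (hP : ∀ g : TreeAut X, P (g : Equiv.Perm (List X)) → g ∈ H)
    (Γ : Type) [Group Γ] (hfp : Group.IsFinitelyPresented Γ)
    (hΓ : ∀ x : Γ, IsOfFinOrder x) (S : Set Γ) (hS : Subgroup.closure S = ⊤)
    (ρ : Γ →* Equiv.Perm (List X)) (h1 : ∀ g w, (ρ g w).length = w.length)
    (h2 : ∀ g v w, ρ g v <+: ρ g (v ++ w))
    (h3 : ∀ g ∈ S, {f : List X → List X | ∃ v, ∀ w, ρ g (v ++ w) = ρ g v ++ f w}.Finite)
    (h4 : ∀ g ∈ S, ∃ C k : ℕ, ∀ n, {v : List X | v.length = n ∧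
      ¬ ∃ f : List X → List X, P f ∧ ∀ w, ρ g (v ++ w) = ρ g v ++ f w}.ncard ≤
        C * (n + 1) ^ k) :
    Finite ρ.range := by
  have hρT : ρ.range ≤ TreeAut X := mem_treeAut_of ρ.range
    (by rintro _ ⟨g, rfl⟩; exact h1 g) (by rintro _ ⟨g, rfl⟩; exact h2 g)
  refine rel_explicit X (H.map (TreeAut X).subtype) ?_ ?_ ?_ ?_ Γ hfp hΓ S hS ρ h1 h2 h3 ?_
  · rintro _ ⟨g, hg, rfl⟩ w
    exact ta_length g w
  · rintro _ ⟨g, hg, rfl⟩ v
    exact ⟨_, ⟨sect g v, hcl g hg v, rfl⟩, fun w => sect_spec g v w⟩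
  · rintro _ ⟨g, hg, rfl⟩
    refine ((hfs g hg).image
      (fun s : TreeAut X => ((s : Equiv.Perm (List X)) : List X → List X))).subset ?_
    rintro f ⟨v, hv⟩
    refine ⟨sect g v, ⟨v, rfl⟩, ?_⟩
    funext w
    have h5 := hv w
    have h6 : (TreeAut X).subtype g (v ++ w) = (TreeAut X).subtype g v ++
      (sect g v : Equiv.Perm (List X)) w := sect_spec g v w
    rw [h6] at h5
    exact List.append_cancel_left h5
  · exact fpb_of_equiv (H.equivMapOfInjective (TreeAut X).subtype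
      (Subgroup.subtype_injective _)).symm hF
  · intro g hg
    obtain ⟨C, k, hC⟩ := h4 g hg
    refine ⟨C, k, fun n => ?_⟩
    refine le_trans (Set.ncard_le_ncard ?_ (words_finite n _)) (hC n)
    rintro v ⟨hv, hne⟩
    refine ⟨hv, ?_⟩
    rintro ⟨f, hf, he⟩
    apply hne
    let γ : TreeAut X := ⟨ρ g, hρT ⟨g, rfl⟩⟩
    have h5 : ((sect γ v : Equiv.Perm (List X)) : List X → List X) = f := by
      funext w
      have h6 := he w
      have h7 : ρ g (v ++ w) = ρ g v ++ (sect γ v : Equiv.Perm (List X)) w := sect_spec γ v w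
      rw [h7] at h6
      exact List.append_cancel_left h6
    refine ⟨_, ⟨sect γ v, hP _ (h5 ▸ hf), rfl⟩, fun w => sect_spec γ v w⟩

/-- **Automata over `(ℤ/m)^d` which are affine up to polynomially many states.** Words are the
`m`-adic expansions of integer vectors. -/
theorem affine_explicit (m : ℕ) (hm : 2 ≤ m) (d : ℕ) (Γ : Type) [Group Γ]
    (hfp : Group.IsFinitelyPresented Γ) (hΓ : ∀ x : Γ, IsOfFinOrder x) (S : Set Γ)
    (hS : Subgroup.closure S = ⊤) (ρ : Γ →* Equiv.Perm (List (Fin d → Fin m)))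
    (h1 : ∀ g w, (ρ g w).length = w.length) (h2 : ∀ g v w, ρ g v <+: ρ g (v ++ w))
    (h3 : ∀ g ∈ S, {f : List (Fin d → Fin m) → List (Fin d → Fin m) |
      ∃ v, ∀ w, ρ g (v ++ w) = ρ g v ++ f w}.Finite)
    (h4 : ∀ g ∈ S, ∃ C k : ℕ, ∀ n, {v : List (Fin d → Fin m) | v.length = n ∧
      ¬ ∃ (D : ℤ) (A : Matrix (Fin d) (Fin d) ℤ) (b : Fin d → ℤ),
        IsCoprime D m ∧ IsCoprime A.det m ∧ ∀ w, ∃ u, ρ g (v ++ w) = ρ g v ++ u ∧
          ∀ i, (m : ℤ) ^ w.length ∣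
            D * u.foldr (fun x a => ((x i : ℕ) : ℤ) + m * a) 0 -
              (∑ j, A i j * w.foldr (fun x a => ((x j : ℕ) : ℤ) + m * a) 0 + b i)}.ncard ≤
        C * (n + 1) ^ k) :
    Finite ρ.range := by
  obtain ⟨H, hF, hcl, hfs, hmem⟩ := affine_rat m hm d
  refine rel_tree (Fin d → Fin m) H hF hcl hfs
    (fun f => ∃ (D : ℤ) (A : Matrix (Fin d) (Fin d) ℤ) (b : Fin d → ℤ),
      IsCoprime D m ∧ IsCoprime A.det m ∧ ∀ w i, (m : ℤ) ^ w.length ∣
          D * vec (m : ℤ) (fun x : Fin m => ((x : ℕ) : ℤ)) d (f w) i -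
            (A.mulVec (vec (m : ℤ) (fun x : Fin m => ((x : ℕ) : ℤ)) d w) i + b i))
    (fun g hg => hmem g hg) Γ hfp hΓ S hS ρ h1 h2 h3 ?_
  intro g hg
  obtain ⟨C, k, hC⟩ := h4 g hg
  refine ⟨C, k, fun n => ?_⟩
  refine le_trans (Set.ncard_le_ncard ?_ (words_finite n _)) (hC n)
  rintro v ⟨hv, hne⟩
  refine ⟨hv, ?_⟩
  rintro ⟨D, A, b, hD, hA, hw⟩
  apply hne
  choose f hf hf' using hw
  exact ⟨f, ⟨D, A, b, hD, hA, fun w i => hf' w i⟩, hf⟩

open Polynomial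

/-- **Automata over `K^d`, `K` a finite field, which are affine up to polynomially many states.**
Words are the expansions of vectors of polynomials. -/
theorem affine_explicit_ff (K : Type) [Field K] [Finite K] (d : ℕ) (Γ : Type) [Group Γ]
    (hfp : Group.IsFinitelyPresented Γ) (hΓ : ∀ x : Γ, IsOfFinOrder x) (S : Set Γ)
    (hS : Subgroup.closure S = ⊤) (ρ : Γ →* Equiv.Perm (List (Fin d → K)))
    (h1 : ∀ g w, (ρ g w).length = w.length) (h2 : ∀ g v w, ρ g v <+: ρ g (v ++ w))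
    (h3 : ∀ g ∈ S, {f : List (Fin d → K) → List (Fin d → K) |
      ∃ v, ∀ w, ρ g (v ++ w) = ρ g v ++ f w}.Finite)
    (h4 : ∀ g ∈ S, ∃ C k : ℕ, ∀ n, {v : List (Fin d → K) | v.length = n ∧
      ¬ ∃ (D : K[X]) (A : Matrix (Fin d) (Fin d) K[X]) (b : Fin d → K[X]),
        IsCoprime D X ∧ IsCoprime A.det X ∧ ∀ w, ∃ u, ρ g (v ++ w) = ρ g v ++ u ∧
          ∀ i, (X : K[X]) ^ w.length ∣
            D * u.foldr (fun x a => Polynomial.C (x i) + X * a) 0 -
              (∑ j, A i j * w.foldr (fun x a => Polynomial.C (x j) + X * a) 0 + b i)}.ncard ≤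
        C * (n + 1) ^ k) :
    Finite ρ.range := by
  obtain ⟨H, hF, hcl, hfs, hmem⟩ := affine_ff K d
  refine rel_tree (Fin d → K) H hF hcl hfs
    (fun f => ∃ (D : K[X]) (A : Matrix (Fin d) (Fin d) K[X]) (b : Fin d → K[X]),
      IsCoprime D X ∧ IsCoprime A.det X ∧ ∀ w i, (X : K[X]) ^ w.length ∣
          D * vec (X : K[X]) Polynomial.C d (f w) i -
            (A.mulVec (vec (X : K[X]) Polynomial.C d w) i + b i))
    (fun g hg => hmem g hg) Γ hfp hΓ S hS ρ h1 h2 h3 ?_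
  intro g hg
  obtain ⟨C, k, hC⟩ := h4 g hg
  refine ⟨C, k, fun n => ?_⟩
  refine le_trans (Set.ncard_le_ncard ?_ (words_finite n _)) (hC n)
  rintro v ⟨hv, hne⟩
  refine ⟨hv, ?_⟩
  rintro ⟨D, A, b, hD, hA, hw⟩
  apply hne
  choose f hf hf' using hw
  exact ⟨f, ⟨D, A, b, hD, hA, fun w i => hf' w i⟩, hf⟩

end Vale.Agent.P192.H903
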