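import Mathlib

/-!
# P192: torsion in congruence kernels
-/

namespace Vale.Agent.P192.H903

open Matrix

variable {n : Type*} [Fintype n] [DecidableEq n] {A : Type*} [CommRing A] [IsDomain A]
  {F : Type*} [Field F]

theorem eq_one_of_pow (φ : A →+* F) (q : ℕ) (hq : (q : F) ≠ 0) (g : Matrix n n A)
    (h1 : g ^ q = 1) (h2 : g.map φ = 1) : g = 1 := by
  set U : Matrix n n A := ∑ i ∈ Finset.range q, g ^ i with hU
  have e1 : U * (g - 1) = 0 := by
    rw [hU, geom_sum_mul, h1, sub_self]
  have e2 : φ (U.det) ≠ 0 := by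
    have : φ U.det = (U.map φ).det := by
      rw [RingHom.map_det]; rfl
    rw [this]
    have h3 : U.map φ = (q : F) • (1 : Matrix n n F) := by
      have : U.map φ = φ.mapMatrix U := rfl
      rw [this, hU, map_sum]
      have h4 : ∀ i ∈ Finset.range q, φ.mapMatrix (g ^ i) = 1 := by
        intro i _
        rw [map_pow]
        have : φ.mapMatrix g = 1 := h2
        rw [this, one_pow]
      rw [Finset.sum_congr rfl h4]
      simp [Algebra.smul_def]
    rw [h3, Matrix.det_smul, Matrix.det_one, mul_one]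
    exact pow_ne_zero _ hq
  have e3 : U.det ≠ 0 := by
    intro h
    exact e2 (by rw [h, map_zero])
  have e4 : U.det • (g - 1) = 0 := by
    have : U.adjugate * (U * (g - 1)) = 0 := by rw [e1, mul_zero]
    rw [← mul_assoc, Matrix.adjugate_mul, Matrix.smul_mul, one_mul] at this
    exact this
  have e5 : g - 1 = 0 := by
    ext i j
    have := congrFun (congrFun e4 i) j
    rw [Matrix.smul_apply, smul_eq_mul, Matrix.zero_apply] at this
    exact (mul_eq_zero.mp this).resolve_left e3
  exact sub_eq_zero.mp e5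

theorem gl_eq_one_of_pow (φ : A →+* F) (q : ℕ) (hq : (q : F) ≠ 0) (g : GL n A)
    (h1 : g ^ q = 1) (h2 : Matrix.GeneralLinearGroup.map φ g = 1) : g = 1 := by
  refine Units.ext ?_
  refine eq_one_of_pow φ q hq _ ?_ ?_
  · rw [← Units.val_pow_eq_pow_val, h1, Units.val_one]
  · have := congrArg Units.val h2
    exact this

/-- A torsion element of a congruence kernel has order a power of the residue characteristic. -/
theorem pow_char_pow (φ : A →+* F) (p : ℕ) (hp : p.Prime) [CharP F p] (g : GL n A)
    (h1 : IsOfFinOrder g) (h2 : Matrix.GeneralLinearGroup.map φ g = 1) : ∃ k, g ^ p ^ k = 1 := by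
  obtain ⟨k, m, hm, h⟩ := Nat.exists_eq_pow_mul_and_not_dvd (n := orderOf g)
    (orderOf_pos_iff.mpr h1).ne' p hp.ne_one
  refine ⟨k, ?_⟩
  refine gl_eq_one_of_pow φ m ?_ _ ?_ ?_
  · rw [Ne, CharP.cast_eq_zero_iff F p]
    exact hm
  · rw [← pow_mul, ← h, pow_orderOf_eq_one]
  · rw [map_pow, h2, one_pow]

end Vale.Agent.P192.H903
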