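import Mathlib

/-!
# P192: p-groups acting linearly in characteristic p
-/

namespace Vale.Agent.P192.H903

universe u

/-- `p`-groups of linear maps of a finite vector space of dimension `d` in characteristic `p` are
solvable of length at most `d`. -/
theorem derivedSeries_act {F : Type*} [Field F] {p : ℕ} [hp : Fact p.Prime] [CharP F p]
    {P : Type*} [Group P] (hP : IsPGroup p P) :
    ∀ (d : ℕ) (V : Type u) [AddCommGroup V] [Module F V] [Finite V], Module.finrank F V = d →
      ∀ (ρ : P →* (V →ₗ[F] V)), ∀ g ∈ derivedSeries P d, ρ g = 1 := by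
  intro d
  induction d with
  | zero =>
    intro V _ _ _ hV ρ g _
    have : Subsingleton V := Module.finrank_zero_iff.mp hV
    ext v
    exact Subsingleton.elim _ _
  | succ d ih =>
    intro V _ _ _ hV ρ g hg
    have hnt : Nontrivial V := by
      refine Module.finrank_pos_iff (R := F) |>.mp ?_
      omega
    -- a nonzero fixed vector
    have hfix : ∃ v : V, v ≠ 0 ∧ ∀ g, ρ g v = v := by
      let act : MulAction P V :=
        { smul := fun g v => ρ g v
          one_smul := fun v => by
            change ρ 1 v = v
            rw [map_one]; rfl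
          mul_smul := fun g h v => by
            change ρ (g * h) v = ρ g (ρ h v)
            rw [map_mul]; rfl }
      have hdvd : p ∣ Nat.card V := by
        obtain ⟨v, hv⟩ := exists_ne (0 : V)
        have h1 : p • v = 0 := by
          rw [← Nat.cast_smul_eq_nsmul F, CharP.cast_eq_zero, zero_smul]
        have h2 : addOrderOf v = p := by
          rcases (Nat.dvd_prime hp.out).mp (addOrderOf_dvd_of_nsmul_eq_zero h1) with h | h
          · exact absurd (AddMonoid.addOrderOf_eq_one_iff.mp h) hv
          · exact h
        rw [← h2]
        exact addOrderOf_dvd_natCard v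
      obtain ⟨b, hb, h0⟩ := hP.exists_fixed_point_of_prime_dvd_card_of_fixed_point V hdvd
        (a := (0 : V)) (fun g => by
          change ρ g 0 = 0
          exact map_zero _)
      exact ⟨b, h0.symm, fun g => hb g⟩
    obtain ⟨v, hv0, hv⟩ := hfix
    set W : Submodule F V := Submodule.span F {v} with hW
    have hWle : ∀ g, W ≤ W.comap (ρ g) := by
      intro g
      rw [hW, Submodule.span_le, Set.singleton_subset_iff, SetLike.mem_coe, Submodule.mem_comap,
        hv g]
      exact Submodule.mem_span_singleton_self v
    let ρ' : P →* ((V ⧸ W) →ₗ[F] (V ⧸ W)) :=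
      { toFun := fun g => W.mapQ W (ρ g) (hWle g)
        map_one' := by
          ext x
          simp
        map_mul' := fun g h => by
          ext x
          simp }
    have hdim : Module.finrank F (V ⧸ W) = d := by
      have h1 := Submodule.finrank_quotient_add_finrank W
      have h2 : Module.finrank F W = 1 := finrank_span_singleton hv0
      omega
    have key : ∀ g ∈ derivedSeries P d, ∀ w, ∃ c : F, ρ g w = w + c • v := by
      intro g hg w
      have hfin : Finite (V ⧸ W) := Finite.of_surjective W.mkQ W.mkQ_surjective
      have h1 := ih (V ⧸ W) hdim ρ' g hg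
      have h2 := LinearMap.congr_fun h1 (W.mkQ w)
      have h3 : W.mkQ (ρ g w) = W.mkQ w := h2
      have h4 : ρ g w - w ∈ W := by
        rw [← Submodule.ker_mkQ W, LinearMap.mem_ker, map_sub, h3, sub_self]
      rw [hW, Submodule.mem_span_singleton] at h4
      obtain ⟨c, hc⟩ := h4
      exact ⟨c, by rw [hc]; abel⟩
    have hcomm : ∀ g ∈ derivedSeries P d, ∀ h ∈ derivedSeries P d, ρ (g * h) = ρ (h * g) := by
      intro g hg h hh
      ext w
      obtain ⟨a, ha⟩ := key g hg w
      obtain ⟨b, hb⟩ := key h hh w
      rw [map_mul, map_mul]
      change ρ g (ρ h w) = ρ h (ρ g w)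
      rw [ha, hb, map_add, map_add, map_smul, map_smul, hv, hv, ha, hb]
      abel
    have hle : derivedSeries P (d + 1) ≤ ρ.ker := by
      rw [derivedSeries_succ, Subgroup.commutator_le]
      intro g hg h hh
      rw [MonoidHom.mem_ker, commutatorElement_def]
      have : g * h * g⁻¹ * h⁻¹ = g * h * (h * g)⁻¹ := by group
      rw [this, map_mul, hcomm g hg h hh, ← map_mul, mul_inv_cancel, map_one]
    exact hle hg

end Vale.Agent.P192.H903
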