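import Mathlib

/-!
# P192: finitely generated periodic solvable groups are finite
-/

namespace Vale.Agent.P192.H903

theorem index_derivedSeries {G : Type*} [Group G] [Group.FG G] (hG : ∀ x : G, IsOfFinOrder x) :
    ∀ k, (derivedSeries G k).index ≠ 0 := by
  intro k
  induction k with
  | zero => simp
  | succ k ih =>
    have hfi : (derivedSeries G k).FiniteIndex := ⟨ih⟩
    set H := derivedSeries G k with hH
    have hfg : Group.FG H := inferInstance
    have hab : Finite (Abelianization H) := by
      have hfg' : Group.FG (Abelianization H) := QuotientGroup.fg _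
      refine CommGroup.finite_of_fg_isMulTorsion (Abelianization H) ?_
      intro x
      obtain ⟨y, rfl⟩ := QuotientGroup.mk_surjective x
      have h1 : IsOfFinOrder y := by
        rw [← Submonoid.isOfFinOrder_coe]
        exact hG _
      exact (QuotientGroup.mk' (commutator H)).isOfFinOrder h1
    have h1 : (commutator H).index ≠ 0 := by
      have : Finite (H ⧸ commutator H) := hab
      exact Subgroup.index_ne_zero_of_finite
    rw [derivedSeries_succ, ← hH, ← Subgroup.map_subtype_commutator]
    rw [Subgroup.index_map]
    simp only [Subgroup.ker_subtype, sup_bot_eq, Subgroup.range_subtype]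
    exact Nat.mul_ne_zero_iff.mpr ⟨h1, ih⟩

theorem finite_of_solvable {G : Type*} [Group G] [Group.FG G] (hG : ∀ x : G, IsOfFinOrder x)
    (k : ℕ) (hk : derivedSeries G k = ⊥) : Finite G := by
  have h := index_derivedSeries hG k
  rw [hk, Subgroup.index_bot] at h
  exact (Nat.card_ne_zero.mp h).2

end Vale.Agent.P192.H903
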