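import Vale.Agent.P192.H903.Residue
import Vale.Agent.P192.H903.Cong
import Vale.Agent.P192.H903.PAct
import Vale.Agent.P192.H903.Solv

/-!
# P192: finitely generated periodic linear groups are finite (Burnside, Schur, Kaplansky)
-/

namespace Vale.Agent.P192.H903

open Matrix

theorem charP_of_hom {A F : Type*} [CommRing A] [Field F] (φ : A →+* F) {p : ℕ} (hp : p.Prime)
    [CharP A p] : CharP F p := by
  obtain ⟨q, hq⟩ := CharP.exists F
  have h1 : ((p : ℕ) : F) = 0 := by
    have : φ ((p : ℕ) : A) = 0 := by rw [CharP.cast_eq_zero, map_zero]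
    rwa [map_natCast] at this
  have h2 : q ∣ p := (CharP.cast_eq_zero_iff F q p).mp h1
  rcases (Nat.dvd_prime hp).mp h2 with h | h
  · exact absurd h (CharP.char_ne_one F q)
  · rwa [h] at hq

theorem finite_of_domain {n : Type*} [Fintype n] [DecidableEq n] {A : Type*} [CommRing A]
    [IsDomain A] [Algebra.FiniteType ℤ A] {H : Type*} [Group H] [Group.FG H]
    (hH : ∀ x : H, IsOfFinOrder x) (f : H →* GL n A) (hf : Function.Injective f) : Finite H := by
  obtain ⟨m₁, hm₁, -, hfin₁⟩ := exists_residue (A := A) one_ne_zero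
  let _ : Field (A ⧸ m₁) := Ideal.Quotient.field m₁
  obtain ⟨p, hpA⟩ := CharP.exists A
  by_cases hp0 : p = 0
  · subst hp0
    have := CharP.charP_to_charZero A
    obtain ⟨p₁, hp₁⟩ := CharP.exists (A ⧸ m₁)
    have hprime₁ : p₁.Prime := by
      rcases CharP.char_is_prime_or_zero (A ⧸ m₁) p₁ with h | h
      · exact h
      · subst h
        have := CharP.charP_to_charZero (A ⧸ m₁)
        exact absurd hfin₁ (not_finite_iff_infinite.mpr inferInstance)
    obtain ⟨m₂, hm₂, hpm₂, hfin₂⟩ := exists_residue (A := A) (a := (p₁ : A))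
      (Nat.cast_ne_zero.mpr hprime₁.ne_zero)
    let _ : Field (A ⧸ m₂) := Ideal.Quotient.field m₂
    obtain ⟨p₂, hp₂⟩ := CharP.exists (A ⧸ m₂)
    have hprime₂ : p₂.Prime := by
      rcases CharP.char_is_prime_or_zero (A ⧸ m₂) p₂ with h | h
      · exact h
      · subst h
        have := CharP.charP_to_charZero (A ⧸ m₂)
        exact absurd hfin₂ (not_finite_iff_infinite.mpr inferInstance)
    have hne : p₁ ≠ p₂ := by
      rintro rfl
      refine hpm₂ ?_
      rw [← Ideal.Quotient.eq_zero_iff_mem, map_natCast]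
      exact CharP.cast_eq_zero (A ⧸ m₂) p₁
    let Φ : H →* GL n (A ⧸ m₁) × GL n (A ⧸ m₂) :=
      ((Matrix.GeneralLinearGroup.map (Ideal.Quotient.mk m₁)).comp f).prod
        ((Matrix.GeneralLinearGroup.map (Ideal.Quotient.mk m₂)).comp f)
    have hΦ : Function.Injective Φ := by
      rw [injective_iff_map_eq_one]
      intro x hx
      have h1 : Matrix.GeneralLinearGroup.map (Ideal.Quotient.mk m₁) (f x) = 1 :=
        congrArg Prod.fst hx
      have h2 : Matrix.GeneralLinearGroup.map (Ideal.Quotient.mk m₂) (f x) = 1 :=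
        congrArg Prod.snd hx
      have h3 := f.isOfFinOrder (hH x)
      obtain ⟨k₁, hk₁⟩ := pow_char_pow (Ideal.Quotient.mk m₁) p₁ hprime₁ (f x) h3 h1
      obtain ⟨k₂, hk₂⟩ := pow_char_pow (Ideal.Quotient.mk m₂) p₂ hprime₂ (f x) h3 h2
      have h4 := orderOf_dvd_of_pow_eq_one hk₁
      have h5 := orderOf_dvd_of_pow_eq_one hk₂
      have h6 : Nat.Coprime (p₁ ^ k₁) (p₂ ^ k₂) :=
        Nat.Coprime.pow _ _ ((Nat.coprime_primes hprime₁ hprime₂).mpr hne)
      have h7 : orderOf (f x) = 1 := Nat.eq_one_of_dvd_coprimes h6 h4 h5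
      rw [orderOf_eq_one_iff] at h7
      exact hf (by rw [h7, map_one])
    exact Finite.of_injective Φ hΦ
  · have hp : p.Prime := (CharP.char_is_prime_or_zero A p).resolve_right hp0
    have : Fact p.Prime := ⟨hp⟩
    have hc₁ : CharP (A ⧸ m₁) p := charP_of_hom (Ideal.Quotient.mk m₁) hp
    let Φ : H →* GL n (A ⧸ m₁) := (Matrix.GeneralLinearGroup.map (Ideal.Quotient.mk m₁)).comp f
    have hfi : Φ.ker.FiniteIndex := inferInstance
    have hfg : Group.FG Φ.ker := inferInstance
    have hP : IsPGroup p Φ.ker := by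
      intro x
      have h1 : Matrix.GeneralLinearGroup.map (Ideal.Quotient.mk m₁) (f x) = 1 := x.2
      obtain ⟨k, hk⟩ := pow_char_pow (Ideal.Quotient.mk m₁) p hp (f x)
        (f.isOfFinOrder (hH x)) h1
      refine ⟨k, Subtype.ext (hf ?_)⟩
      rw [Subgroup.coe_pow, map_pow, hk, Subgroup.coe_one, map_one]
    have hsolv : derivedSeries Φ.ker (Fintype.card n) = ⊥ := by
      rw [eq_bot_iff]
      intro g hg
      rw [Subgroup.mem_bot]
      refine Subtype.ext (hf ?_)
      rw [Subgroup.coe_one, map_one]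
      refine Units.ext ?_
      ext i j
      by_contra hne
      have h0 : ((f g : Matrix n n A) i j - (1 : Matrix n n A) i j) ≠ 0 := sub_ne_zero.mpr hne
      obtain ⟨m, hm, ham, hfin⟩ := exists_residue h0
      let _ : Field (A ⧸ m) := Ideal.Quotient.field m
      have hc : CharP (A ⧸ m) p := charP_of_hom (Ideal.Quotient.mk m) hp
      let ρ : Φ.ker →* ((n → A ⧸ m) →ₗ[A ⧸ m] (n → A ⧸ m)) :=
        ((Matrix.toLinAlgEquiv' : Matrix n n (A ⧸ m) ≃ₐ[A ⧸ m] _) :
            Matrix n n (A ⧸ m) →* ((n → A ⧸ m) →ₗ[A ⧸ m] (n → A ⧸ m))).comp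
          ((Units.coeHom (Matrix n n (A ⧸ m))).comp
            ((Matrix.GeneralLinearGroup.map (Ideal.Quotient.mk m)).comp (f.comp Φ.ker.subtype)))
      have h1 : ρ g = 1 :=
        derivedSeries_act hP (Fintype.card n) (n → A ⧸ m) (Module.finrank_fintype_fun_eq_card _)
          ρ g hg
      have h2 : (Matrix.GeneralLinearGroup.map (Ideal.Quotient.mk m) (f g) :
          Matrix n n (A ⧸ m)) = 1 := by
        refine (Matrix.toLinAlgEquiv' : Matrix n n (A ⧸ m) ≃ₐ[A ⧸ m] _).injective ?_
        rw [map_one]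
        exact h1
      have h3 := congrFun (congrFun h2 i) j
      refine ham ?_
      rw [← Ideal.Quotient.eq_zero_iff_mem, map_sub, sub_eq_zero]
      refine Eq.trans (show _ = _ from h3) ?_
      rw [Matrix.one_apply, Matrix.one_apply]
      split_ifs <;> simp
    have hK : Finite Φ.ker := by
      refine finite_of_solvable (fun x => ?_) _ hsolv
      rw [← Submonoid.isOfFinOrder_coe]
      exact hH _
    have h1 := Subgroup.card_mul_index Φ.ker
    have h2 : Nat.card H ≠ 0 := by
      rw [← h1]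
      exact Nat.mul_ne_zero_iff.mpr ⟨Nat.card_ne_zero.mpr ⟨inferInstance, hK⟩, hfi.index_ne_zero⟩
    exact (Nat.card_ne_zero.mp h2).2

end Vale.Agent.P192.H903
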