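import Mathlib

/-!
# P192: finitely generated domains have many finite residue fields
-/

namespace Vale.Agent.P192.H903

theorem jacobson_int : IsJacobsonRing ℤ := by
  rw [isJacobsonRing_iff_prime_eq]
  intro P hP
  by_cases h : P = ⊥
  · subst h
    refine le_antisymm ?_ Ideal.le_jacobson
    intro x hx
    rw [Ideal.mem_jacobson_bot] at hx
    have h1 := hx x
    rw [Int.isUnit_iff] at h1
    rw [Ideal.mem_bot]
    rcases h1 with h1 | h1 <;> nlinarith [mul_self_nonneg x]
  · have := hP.isMaximal h
    exact Ideal.jacobson_eq_self_of_isMaximal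

theorem finite_of_field (S : Type*) [Field S] [Module.Finite ℤ S] : Finite S := by
  obtain ⟨p, hp⟩ := CharP.exists S
  rcases Nat.eq_zero_or_pos p with h0 | h0
  · subst h0
    have := CharP.charP_to_charZero S
    exfalso
    refine Int.not_isField ?_
    refine isField_of_isIntegral_of_isField (S := S) ?_ (Field.toIsField S)
    exact (algebraMap ℤ S).injective_int
  · have : AddGroup.FG S := Module.Finite.iff_addGroup_fg.mp inferInstance
    refine AddCommGroup.finite_of_fg_isAddTorsion S ?_
    intro x
    rw [isOfFinAddOrder_iff_nsmul_eq_zero]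
    exact ⟨p, h0, by simp⟩

/-- A nonzero element of a finitely generated domain is nonzero in some finite field. -/
theorem exists_residue {A : Type*} [CommRing A] [IsDomain A] [Algebra.FiniteType ℤ A] {a : A}
    (ha : a ≠ 0) : ∃ (m : Ideal A), m.IsMaximal ∧ a ∉ m ∧ Finite (A ⧸ m) := by
  have := jacobson_int
  have hJ : IsJacobsonRing A := isJacobsonRing_of_finiteType (A := ℤ)
  have h1 : (⊥ : Ideal A).jacobson = ⊥ := by
    have h2 := isJacobsonRing_iff_prime_eq.mp hJ (⊥ : Ideal A) Ideal.isPrime_bot
    exact h2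
  have h2 : a ∉ (⊥ : Ideal A).jacobson := by
    rw [h1, Ideal.mem_bot]
    exact ha
  rw [Ideal.jacobson, Ideal.mem_sInf] at h2
  push Not at h2
  obtain ⟨m, hm, ham⟩ := h2
  have hmax : m.IsMaximal := hm.2
  refine ⟨m, hmax, ham, ?_⟩
  let _ := Ideal.Quotient.field m
  have : Algebra.FiniteType ℤ (A ⧸ m) := inferInstance
  have : Module.Finite ℤ (A ⧸ m) := finite_of_finite_type_of_isJacobsonRing ℤ (A ⧸ m)
  exact finite_of_field (A ⧸ m)

end Vale.Agent.P192.H903
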