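import Vale.Agent.P192.H903.Linear
import Vale.Agent.P192.H663.Defs

/-!
# P192: finitely generated periodic groups of matrices over a commutative ring are finite
-/

namespace Vale.Agent.P192.H903

open Matrix
open scoped commutatorElement

variable {n : Type*} [Fintype n] [DecidableEq n]

theorem map_mk_eq_one_iff {A : Type*} [CommRing A] (J : Ideal A) (g : GL n A) :
    Matrix.GeneralLinearGroup.map (Ideal.Quotient.mk J) g = 1 ↔
      ∀ i j, ((g : Matrix n n A) - 1) i j ∈ J := by
  constructor
  · intro h i j
    have h1 : (Matrix.GeneralLinearGroup.map (Ideal.Quotient.mk J) g : Matrix n n (A ⧸ J)) = 1 :=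
      congrArg Units.val h
    have h3 := congrFun (congrFun h1 i) j
    rw [← Ideal.Quotient.eq_zero_iff_mem, Matrix.sub_apply, map_sub, sub_eq_zero]
    refine Eq.trans (show _ = _ from h3) ?_
    rw [Matrix.one_apply, Matrix.one_apply]
    split_ifs <;> simp
  · intro h
    refine Units.ext ?_
    ext i j
    have h1 := h i j
    rw [← Ideal.Quotient.eq_zero_iff_mem, Matrix.sub_apply, map_sub, sub_eq_zero] at h1
    refine Eq.trans (show _ = _ from h1) ?_
    rw [Units.val_one, Matrix.one_apply, Matrix.one_apply]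
    split_ifs <;> simp

/-- the congruence subgroup of an ideal -/
def cong {A : Type*} [CommRing A] (J : Ideal A) : Subgroup (GL n A) :=
  (Matrix.GeneralLinearGroup.map (n := n) (Ideal.Quotient.mk J)).ker

theorem mem_cong {A : Type*} [CommRing A] (J : Ideal A) (g : GL n A) :
    g ∈ cong J ↔ ∀ i j, ((g : Matrix n n A) - 1) i j ∈ J :=
  map_mk_eq_one_iff J g

omit [DecidableEq n] in
theorem mul_entries {A : Type*} [CommRing A] {I J : Ideal A} {X Y : Matrix n n A}
    (hX : ∀ i j, X i j ∈ I) (hY : ∀ i j, Y i j ∈ J) (i j : n) : (X * Y) i j ∈ I * J := by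
  rw [Matrix.mul_apply]
  exact Ideal.sum_mem _ fun k _ => Ideal.mul_mem_mul (hX i k) (hY k j)

theorem cong_commutator {A : Type*} [CommRing A] (I J : Ideal A) :
    ⁅(cong I : Subgroup (GL n A)), (cong J : Subgroup (GL n A))⁆ ≤
      (cong (I * J) : Subgroup (GL n A)) := by
  rw [Subgroup.commutator_le]
  intro g hg h hh
  rw [mem_cong] at hg hh ⊢
  intro i j
  have e1 : (((⁅g, h⁆ : GL n A) : Matrix n n A) - 1) =
      (((g : Matrix n n A) - 1) * ((h : Matrix n n A) - 1) -
        ((h : Matrix n n A) - 1) * ((g : Matrix n n A) - 1)) *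
        (((h * g)⁻¹ : GL n A) : Matrix n n A) := by
    have e2 : (⁅g, h⁆ : GL n A) = g * h * (h * g)⁻¹ := by
      rw [commutatorElement_def]; group
    have e3 : ((h : Matrix n n A) * (g : Matrix n n A)) *
        (((h * g)⁻¹ : GL n A) : Matrix n n A) = 1 := by
      rw [← Units.val_mul, ← Units.val_mul, mul_inv_cancel, Units.val_one]
    have e4 : ((g : Matrix n n A) - 1) * ((h : Matrix n n A) - 1) -
        ((h : Matrix n n A) - 1) * ((g : Matrix n n A) - 1) =
        (g : Matrix n n A) * (h : Matrix n n A) - (h : Matrix n n A) * (g : Matrix n n A) := by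
      noncomm_ring
    rw [e4, sub_mul, e3, e2, Units.val_mul, Units.val_mul]
  rw [e1, Matrix.mul_apply]
  refine Ideal.sum_mem _ fun k _ => Ideal.mul_mem_right _ _ ?_
  rw [Matrix.sub_apply]
  refine sub_mem (mul_entries hg hh i k) ?_
  rw [mul_comm I J]
  exact mul_entries hh hg i k

theorem finite_range_of_finite_ker {H G : Type*} [Group H] [Group G] (f : H →* G)
    (h : Finite f.range) : f.ker.FiniteIndex := by
  have : Finite (H ⧸ f.ker) := Finite.of_equiv _ (QuotientGroup.quotientKerEquivRange f).symm.toEquiv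
  exact Subgroup.finiteIndex_of_finite_quotient

theorem finite_of_finiteType {A : Type*} [CommRing A] [Algebra.FiniteType ℤ A] {H : Type*}
    [Group H] [Group.FG H] (hH : ∀ x : H, IsOfFinOrder x) (f : H →* GL n A)
    (hf : Function.Injective f) : Finite H := by
  have hN : IsNoetherianRing A := Algebra.FiniteType.isNoetherianRing ℤ A
  have hS : (minimalPrimes A).Finite := minimalPrimes.finite_of_isNoetherianRing A
  let S := {P : Ideal A // P ∈ minimalPrimes A}
  have hSf : Finite S := hS
  let K : S → Subgroup H := fun P => (cong P.1).comap f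
  have hK : ∀ P, (K P).FiniteIndex := by
    intro P
    have hP : P.1.IsPrime := P.2.1.1
    have hdom : IsDomain (A ⧸ P.1) := inferInstance
    let _ : Algebra ℤ (A ⧸ P.1) := Ring.toIntAlgebra (A ⧸ P.1)
    have hft : Algebra.FiniteType ℤ (A ⧸ P.1) :=
      Algebra.FiniteType.of_surjective (Ideal.Quotient.mk P.1).toIntAlgHom
        Ideal.Quotient.mk_surjective
    let fP : H →* GL n (A ⧸ P.1) := (Matrix.GeneralLinearGroup.map (Ideal.Quotient.mk P.1)).comp f
    have h1 : Finite fP.range := by
      have : Group.FG fP.range := Group.fg_range fP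
      refine finite_of_domain (A := A ⧸ P.1) (fun x => ?_) fP.range.subtype
        (Subgroup.subtype_injective _)
      obtain ⟨x, y, rfl⟩ := x
      rw [← Submonoid.isOfFinOrder_coe]
      exact fP.isOfFinOrder (hH y)
    exact finite_range_of_finite_ker fP h1
  let L : Subgroup H := ⨅ P, K P
  have hL : L.FiniteIndex := Subgroup.finiteIndex_iInf hK
  have hfg : Group.FG L := inferInstance
  have hLn : ∀ x ∈ L, f x ∈ (cong (nilradical A) : Subgroup (GL n A)) := by
    intro x hx
    rw [mem_cong]
    intro i j
    rw [nilradical_eq_sInf, Ideal.mem_sInf]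
    intro P hP
    have hP' : P.IsPrime := hP
    obtain ⟨Q, hQ, hQP⟩ := Ideal.exists_minimalPrimes_le (I := (⊥ : Ideal A)) (J := P) bot_le
    have h1 : x ∈ K ⟨Q, hQ⟩ := (iInf_le K ⟨Q, hQ⟩) hx
    have h2 : f x ∈ (cong Q : Subgroup (GL n A)) := h1
    rw [mem_cong] at h2
    exact hQP (h2 i j)
  have hder : ∀ k, ∀ x ∈ derivedSeries L k, f x ∈ (cong (nilradical A ^ (k + 1)) :
      Subgroup (GL n A)) := by
    intro k
    induction k with
    | zero =>
      intro x _
      rw [zero_add, pow_one]
      exact hLn x x.2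
    | succ k ih =>
      have h1 : derivedSeries L (k + 1) ≤
          (cong (nilradical A ^ (k + 1 + 1)) : Subgroup (GL n A)).comap (f.comp L.subtype) := by
        rw [derivedSeries_succ, Subgroup.commutator_le]
        intro a ha b hb
        rw [Subgroup.mem_comap, map_commutatorElement]
        have h2 := cong_commutator (n := n) (nilradical A ^ (k + 1)) (nilradical A ^ (k + 1))
          (Subgroup.commutator_mem_commutator (ih a ha) (ih b hb))
        rw [mem_cong] at h2 ⊢
        intro i j
        refine Ideal.pow_le_pow_right ?_ (?_ : _ ∈ nilradical A ^ (k + 1 + (k + 1)))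
        · omega
        · rw [pow_add]
          exact h2 i j
      intro x hx
      exact h1 hx
  obtain ⟨k, hk⟩ := IsNoetherianRing.isNilpotent_nilradical A
  have hsolv : derivedSeries L k = ⊥ := by
    rw [eq_bot_iff]
    intro g hg
    have h1 := hder k g hg
    rw [mem_cong, pow_succ, hk, zero_mul] at h1
    rw [Subgroup.mem_bot]
    refine Subtype.ext (hf ?_)
    rw [Subgroup.coe_one, map_one]
    refine Units.ext ?_
    ext i j
    have h2 := h1 i j
    rw [Ideal.zero_eq_bot, Ideal.mem_bot, Matrix.sub_apply, sub_eq_zero] at h2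
    exact h2
  have hKf : Finite L := by
    refine finite_of_solvable (fun x => ?_) _ hsolv
    rw [← Submonoid.isOfFinOrder_coe]
    exact hH _
  have h1 := Subgroup.card_mul_index L
  have h2 : Nat.card H ≠ 0 := by
    rw [← h1]
    exact Nat.mul_ne_zero_iff.mpr ⟨Nat.card_ne_zero.mpr ⟨inferInstance, hKf⟩, hL.index_ne_zero⟩
  exact (Nat.card_ne_zero.mp h2).2

/-- Finitely generated periodic groups of matrices over a commutative ring are finite. -/
theorem finite_of_fg_periodic {A : Type*} [CommRing A] {H : Type*} [Group H] [Group.FG H]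
    (hH : ∀ x : H, IsOfFinOrder x) (f : H →* GL n A) : Finite f.range := by
  classical
  obtain ⟨S, hS, hSf⟩ := (Group.fg_iff (G := H)).mp inferInstance
  let E : Set A := ⋃ s ∈ S, ⋃ i : n, ⋃ j : n,
    {((f s : GL n A) : Matrix n n A) i j, (((f s)⁻¹ : GL n A) : Matrix n n A) i j}
  have hE : E.Finite := by
    refine Set.Finite.biUnion hSf fun s _ => ?_
    refine Set.finite_iUnion fun i => Set.finite_iUnion fun j => ?_
    exact (Set.finite_singleton _).insert _
  let B : Subalgebra ℤ A := Algebra.adjoin ℤ E
  have hB : Algebra.FiniteType ℤ B :=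
    (Subalgebra.fg_iff_finiteType B).mp ⟨hE.toFinset, by rw [Set.Finite.coe_toFinset]⟩
  let ι : GL n B →* GL n A := Matrix.GeneralLinearGroup.map (algebraMap B A)
  have hι : Function.Injective ι := by
    intro x y hxy
    refine Units.ext ?_
    ext i j
    have h1 : (ι x : Matrix n n A) = ι y := congrArg Units.val hxy
    exact congrFun (congrFun h1 i) j
  have hmem : ∀ s ∈ S, f s ∈ ι.range := by
    intro s hs
    have h1 : ∀ i j, ((f s : GL n A) : Matrix n n A) i j ∈ B := fun i j =>
      Algebra.subset_adjoin (Set.mem_biUnion hs (Set.mem_iUnion.mpr ⟨i, Set.mem_iUnion.mpr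
        ⟨j, Or.inl rfl⟩⟩))
    have h2 : ∀ i j, (((f s)⁻¹ : GL n A) : Matrix n n A) i j ∈ B := fun i j =>
      Algebra.subset_adjoin (Set.mem_biUnion hs (Set.mem_iUnion.mpr ⟨i, Set.mem_iUnion.mpr
        ⟨j, Or.inr rfl⟩⟩))
    let M : Matrix n n B := fun i j => ⟨_, h1 i j⟩
    let N : Matrix n n B := fun i j => ⟨_, h2 i j⟩
    have hinj : Function.Injective ((algebraMap B A).mapMatrix : Matrix n n B → Matrix n n A) := by
      intro x y hxy
      ext i j
      exact congrFun (congrFun hxy i) j
    have hM : (algebraMap B A).mapMatrix M = ((f s : GL n A) : Matrix n n A) := rfl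
    have hN : (algebraMap B A).mapMatrix N = (((f s)⁻¹ : GL n A) : Matrix n n A) := rfl
    refine ⟨⟨M, N, ?_, ?_⟩, ?_⟩
    · refine hinj ?_
      rw [map_mul, hM, hN, map_one, ← Units.val_mul, mul_inv_cancel, Units.val_one]
    · refine hinj ?_
      rw [map_mul, hM, hN, map_one, ← Units.val_mul, inv_mul_cancel, Units.val_one]
    · exact Units.ext hM
  have hle : f.range ≤ ι.range := by
    rw [MonoidHom.range_eq_map, ← hS, Subgroup.map_le_iff_le_comap, Subgroup.closure_le]
    intro s hs
    exact hmem s hs
  have hfg : Group.FG f.range := Group.fg_range f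
  let e : GL n B ≃* ι.range := MonoidHom.ofInjective hι
  let g : f.range →* GL n B := e.symm.toMonoidHom.comp (Subgroup.inclusion hle)
  have hg : Function.Injective g := e.symm.injective.comp (Subgroup.inclusion_injective hle)
  refine finite_of_finiteType (A := B) (fun x => ?_) g hg
  obtain ⟨x, y, rfl⟩ := x
  rw [← Submonoid.isOfFinOrder_coe]
  exact f.isOfFinOrder (hH y)

theorem fg_of_fp {G : Type*} [Group G] (h : Group.IsFinitelyPresented G) : Group.FG G := by
  obtain ⟨n, φ, hφ, -⟩ := h.out
  exact Group.fg_of_surjective hφ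

/-- **The general linear groups over commutative rings are in the class.** -/
theorem fpb_GL (A : Type*) [CommRing A] : FPB (GL n A) := by
  intro Γ _ hΓ ht f
  have := fg_of_fp hΓ
  exact finite_of_fg_periodic ht f

end Vale.Agent.P192.H903
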